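import Vale.Agent.P181.H303.Spec2

/-!
P181, row HW: degree bound for a highest weight vector along a rank one pencil.
-/

set_option autoImplicit false

open scoped TensorProduct

namespace Vale.Agent.P181.H199

open Vale.Agent.P181 Vale.Agent.P181.H280 Vale.Agent.P181.H303 Finset

/-- The linear functional `v ↦ ∑ w_j v_j`. -/
noncomputable def fn {n : ℕ} (w : EE n) : Module.Dual ℂ (Fin n → ℂ) :=
  ∑ j, w j • LinearMap.proj j

lemma fn_apply {n : ℕ} (w : EE n) (v : Fin n → ℂ) : fn w v = ∑ j, w j * v j := by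
  simp [fn]

lemma evL_lin {n : ℕ} (w : EE n) : evL n (lin w) = fun v => fn w v := by
  funext v
  rw [evL_apply, lin, map_sum, fn_apply]
  simp only [map_smul, MvPolynomial.aeval_X, smul_eq_mul]

lemma formOf_pow_lin {a b n : ℕ} (l : (Fin a → Fin b → (Fin n → ℂ)) →₀ ℂ) (w : Fin a → EE n) :
    formOf l (fun i => lin (w i) ^ b) =
      symEval (fun i => symEval (fun _ : Fin b => fn (w i))) (elOf l) := by
  have h := formOf_lin l (fun i (_ : Fin b) => lin (w i)) (fun i _ => fn (w i))
    (fun i _ => evL_lin (w i))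
  rw [← h]
  congr 1
  funext i
  rw [Finset.prod_const, Finset.card_univ, Fintype.card_fin]

lemma lin_add {n : ℕ} (u v : EE n) : lin (u + v) = lin u + lin v := by
  simp only [lin, PiLp.add_apply, add_smul, Finset.sum_add_distrib]

lemma lin_smul {n : ℕ} (c : ℂ) (u : EE n) : lin (c • u) = c • lin u := by
  simp only [lin, PiLp.smul_apply, smul_eq_mul, mul_smul, Finset.smul_sum]

/-- A multilinear map along an affine pencil is a polynomial. -/
lemma exists_poly {a b n : ℕ}
    (F : MultilinearMap ℂ (fun _ : Fin a => MvPolynomial (Fin n) ℂ) ℂ)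
    (u : Fin a → EE n) (d : Fin a → ℂ) (e : EE n) :
    ∃ p : Polynomial ℂ, ∀ τ : ℂ, F (fun i => lin (u i + (τ * d i) • e) ^ b) = p.eval τ := by
  classical
  refine ⟨∑ K ∈ Fintype.piFinset (fun _ : Fin a => range (b + 1)),
    Polynomial.C (F (fun i => ((b.choose (K i) : ℕ) : ℂ) • (d i ^ (K i) •
      (lin e ^ (K i) * lin (u i) ^ (b - K i))))) * Polynomial.X ^ (∑ i, K i), ?_⟩
  intro τ
  have h1 : (fun i => lin (u i + (τ * d i) • e) ^ b) = fun i => ∑ k ∈ range (b + 1),
      τ ^ k • (((b.choose k : ℕ) : ℂ) • (d i ^ k • (lin e ^ k * lin (u i) ^ (b - k)))) := by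
    funext i
    rw [add_comm, lin_add, lin_smul, add_pow]
    apply Finset.sum_congr rfl
    intro k _
    rw [smul_pow, mul_pow]
    simp only [Algebra.smul_def, map_mul, map_pow, map_natCast]
    ring
  rw [h1, MultilinearMap.map_sum_finset, Polynomial.eval_finsetSum]
  apply Finset.sum_congr rfl
  intro K _
  rw [MultilinearMap.map_smul_univ, Polynomial.eval_mul, Polynomial.eval_C, Polynomial.eval_pow,
    Polynomial.eval_X, Finset.prod_pow_eq_pow_sum, smul_eq_mul, mul_comm]

/-- The upper triangular factor. -/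
noncomputable def bz {n : ℕ} (e : EE (n + 1)) (z : ℂ) : Matrix (Fin (n + 1)) (Fin (n + 1)) ℂ :=
  1 + Matrix.of (fun i j => if i = 0 then (z - 1) / e 0 * e j else 0)

lemma bz_borel {n : ℕ} {e : EE (n + 1)} (he : e 0 ≠ 0) {z : ℂ} (hz : z ≠ 0) :
    IsBorel (bz e z) := by
  constructor
  · intro i j hij
    have h0 : i ≠ 0 := by
      rintro rfl
      exact absurd hij (Fin.not_lt_zero j)
    rw [bz, Matrix.add_apply, Matrix.of_apply, if_neg h0, Matrix.one_apply_ne hij.ne', add_zero]
  · intro i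
    by_cases h0 : i = 0
    · subst h0
      rw [bz, Matrix.add_apply, Matrix.of_apply, if_pos rfl, Matrix.one_apply_eq,
        div_mul_cancel₀ _ he]
      simpa using hz
    · rw [bz, Matrix.add_apply, Matrix.of_apply, if_neg h0, Matrix.one_apply_eq, add_zero]
      exact one_ne_zero

lemma bz_prod {n : ℕ} {e : EE (n + 1)} (he : e 0 ≠ 0) (z : ℂ) (lam : Fin (n + 1) → ℕ) :
    ∏ i, bz e z i i ^ lam i = z ^ lam 0 := by
  rw [Fin.prod_univ_succ]
  have h0 : bz e z 0 0 = z := by
    rw [bz, Matrix.add_apply, Matrix.of_apply, if_pos rfl, Matrix.one_apply_eq,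
      div_mul_cancel₀ _ he]
    ring
  have h1 : ∀ i : Fin n, bz e z i.succ i.succ = 1 := by
    intro i
    rw [bz, Matrix.add_apply, Matrix.of_apply, if_neg (Fin.succ_ne_zero i), Matrix.one_apply_eq,
      add_zero]
  rw [h0]
  simp only [h1, one_pow, Finset.prod_const_one, mul_one]

lemma fn_bz {n : ℕ} (e : EE (n + 1)) (z : ℂ) (w : EE (n + 1)) (v : Fin (n + 1) → ℂ) :
    fn w (Matrix.toLin' (bz e z) v) = fn w v + w 0 * ((z - 1) / e 0) * fn e v := by
  rw [Matrix.toLin'_apply, bz, Matrix.add_mulVec, Matrix.one_mulVec, map_add]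
  congr 1
  rw [fn_apply, Fin.sum_univ_succ]
  have h1 : ∀ i : Fin n, (Matrix.mulVec (Matrix.of (fun i j =>
      if i = 0 then (z - 1) / e 0 * e j else 0)) v) i.succ = 0 := by
    intro i
    rw [Matrix.mulVec, dotProduct]
    apply Finset.sum_eq_zero
    intro j _
    rw [Matrix.of_apply, if_neg (Fin.succ_ne_zero i), zero_mul]
  have h2 : (Matrix.mulVec (Matrix.of (fun (i j : Fin (n + 1)) =>
      if i = 0 then (z - 1) / e 0 * e j else 0)) v) 0 = (z - 1) / e 0 * fn e v := by
    rw [Matrix.mulVec, dotProduct, fn_apply, Finset.mul_sum]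
    apply Finset.sum_congr rfl
    intro j _
    rw [Matrix.of_apply, if_pos rfl]
    ring
  rw [h2]
  simp only [h1, mul_zero, Finset.sum_const_zero, add_zero]
  ring

/-- The functional equation. -/
lemma formOf_feq {a b n : ℕ} (lam : Fin (n + 1) → ℕ)
    (l : (Fin a → Fin b → (Fin (n + 1) → ℂ)) →₀ ℂ)
    (hl : elOf l ∈ hwSpace lam (plethAct a b (n + 1))) (u : Fin a → EE (n + 1))
    (e : EE (n + 1)) (he : e 0 ≠ 0) (d : Fin a → ℂ) {z : ℂ} (hz : z ≠ 0) :
    formOf l (fun i => lin (u i + ((z - 1) * d i) • e) ^ b) =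
      z ^ lam 0 *
        formOf l (fun i => lin (u i + ((1 - z⁻¹) * (d i - u i 0 / e 0)) • e) ^ b) := by
  rw [formOf_pow_lin, formOf_pow_lin, ← smul_eq_mul, ← map_smul, ← bz_prod he z lam]
  have h1 : symMap a (symMap b (Matrix.toLin' (bz e z))) (elOf l) =
      (∏ i, bz e z i i ^ lam i) • elOf l := hl _ (bz_borel he hz)
  rw [← h1]
  have h2 := symEval_act (Matrix.toLin' (bz e z))
    (fun i (_ : Fin b) => fn (u i + ((1 - z⁻¹) * (d i - u i 0 / e 0)) • e)) (elOf l)
  rw [h2]
  congr 1
  congr 1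
  funext i
  congr 1
  funext j
  apply LinearMap.ext
  intro v
  rw [LinearMap.comp_apply, fn_bz]
  have h3 : ∀ (c : ℂ) (w : EE (n + 1)), fn (w + c • e) v = fn w v + c * fn e v := by
    intro c w
    rw [fn_apply, fn_apply, fn_apply, Finset.mul_sum, ← Finset.sum_add_distrib]
    apply Finset.sum_congr rfl
    intro k _
    rw [PiLp.add_apply, PiLp.smul_apply, smul_eq_mul]
    ring
  rw [h3, h3, PiLp.add_apply, PiLp.smul_apply, smul_eq_mul]
  field_simp
  ring

theorem rowHW : RowHW := by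
  intro a b n lam l hl u e _ he0
  obtain ⟨A, hA⟩ := exists_poly (b := b) (formOf l) u (fun i => inner ℂ e (u i)) e
  obtain ⟨B, hB⟩ := exists_poly (b := b) (formOf l) u
    (fun i => inner ℂ e (u i) - u i 0 / e 0) e
  -- `A(z - 1) = z ^ lam 0 * B(1 - 1 / z)`
  set P : Polynomial ℂ := A.comp (Polynomial.X - 1) with hP
  set R : Polynomial ℂ := B.comp (1 - Polynomial.X) with hR
  have hPe : ∀ z : ℂ, P.eval z = A.eval (z - 1) := by
    intro z
    rw [hP, Polynomial.eval_comp, Polynomial.eval_sub, Polynomial.eval_X, Polynomial.eval_one]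
  have hRe : ∀ z : ℂ, R.eval z = B.eval (1 - z) := by
    intro z
    rw [hR, Polynomial.eval_comp, Polynomial.eval_sub, Polynomial.eval_X, Polynomial.eval_one]
  have hfe : ∀ z : ℂ, z ≠ 0 → P.eval z = z ^ lam 0 * R.eval z⁻¹ := by
    intro z hz
    rw [hPe, hRe, ← hA, ← hB]
    exact formOf_feq lam l hl u e he0 _ hz
  have hrev : ∀ z : ℂ, z ≠ 0 → R.reverse.eval z = z ^ R.natDegree * R.eval z⁻¹ := by
    intro z hz
    let _ : Invertible z⁻¹ := invertibleOfNonzero (inv_ne_zero hz)
    have h := Polynomial.eval₂_reverse_mul_pow (RingHom.id ℂ) z⁻¹ R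
    rw [invOf_eq_inv, inv_inv] at h
    simp only [Polynomial.eval₂_id] at h
    rw [← h, mul_comm (z ^ _), mul_assoc, ← mul_pow, inv_mul_cancel₀ hz, one_pow, mul_one]
  have heq : Polynomial.X ^ R.natDegree * P = Polynomial.X ^ lam 0 * R.reverse := by
    apply Polynomial.eq_of_infinite_eval_eq
    apply Set.Infinite.mono (s := {z : ℂ | z ≠ 0})
    · intro z hz
      have hz' : z ≠ 0 := hz
      rw [Set.mem_ofPred_eq, Polynomial.eval_mul, Polynomial.eval_mul, Polynomial.eval_pow,
        Polynomial.eval_pow, Polynomial.eval_X, hfe z hz', hrev z hz']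
      ring
    · exact (Set.finite_singleton (0 : ℂ)).infinite_compl
  refine ⟨P, ?_, ?_⟩
  · by_cases h0 : P = 0
    · rw [h0, Polynomial.natDegree_zero]
      exact Nat.zero_le _
    · have h1 : (Polynomial.X ^ R.natDegree * P).natDegree = R.natDegree + P.natDegree := by
        rw [Polynomial.natDegree_mul (pow_ne_zero _ Polynomial.X_ne_zero) h0,
          Polynomial.natDegree_X_pow]
      have h2 : (Polynomial.X ^ lam 0 * R.reverse).natDegree ≤ lam 0 + R.natDegree :=
        le_trans Polynomial.natDegree_mul_le (add_le_add (Polynomial.natDegree_X_pow _).le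
          (Polynomial.reverse_natDegree_le R))
      rw [← heq, h1] at h2
      omega
  · intro z _
    rw [hPe, ← hA]

end Vale.Agent.P181.H199
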